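import Vale.Agent.Lib.P279.Defs
import Vale.Agent.Lib.P279.Table.R11
import Vale.Agent.Lib.P279.Table.R12
import Vale.Agent.Lib.P279.Table.R13
import Vale.Agent.Lib.P279.Table.R14
import Vale.Agent.Lib.P279.Table.R15
import Vale.Agent.Lib.P279.Table.R17
import Vale.Agent.Lib.P279.Table.R18
import Vale.Agent.Lib.P279.Table.R19
import Vale.Agent.Lib.P279.Table.R20
import Vale.Agent.Lib.P279.Table.R21
import Vale.Agent.Lib.P279.Table.R22
import Vale.Agent.Lib.P279.Table.R23
import Vale.Agent.Lib.P279.Table.R24
import Vale.Agent.Lib.P279.Table.R26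
import Vale.Agent.Lib.P279.Table.R27
import Vale.Agent.Lib.P279.Table.R28
import Vale.Agent.Lib.P279.Table.R29
import Vale.Agent.Lib.P279.Table.R30

open Vale.Agent.Lib.P279

/-- Explicit table: for each triple `(r, p, q)` in the list, at `r` very general points, every nonzero
form `F` of degree `d` with multiplicity at least `m` at all the points satisfies `p m ≤ q d`. -/
theorem Vale.Agent.Results.P279.TableC.result :
    ∀ e ∈ ([(11, 66313, 20000), (12, 346283, 100000), (13, 360465, 100000), (14, 373964, 100000), (15, 387194, 100000), (17, 412099, 100000), (18, 424151, 100000), (19, 435744, 100000), (20, 447054, 100000), (21, 458118, 100000), (22, 468872, 100000), (23, 479434, 100000), (24, 489752, 100000), (26, 509777, 100000), (27, 519477, 100000), (28, 529015, 100000), (29, 538398, 100000), (30, 547606, 100000)] : List (ℕ × ℕ × ℕ)),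
      ∃ G : ℕ → MvPolynomial (Fin e.1 × Fin 2) ℂ, (∀ N, G N ≠ 0) ∧
        ∀ t : Fin e.1 × Fin 2 → ℂ, (∀ N, MvPolynomial.eval t (G N) ≠ 0) →
          ∀ (d m : ℕ) (F : MvPolynomial (Fin 3) ℂ), F ≠ 0 → F.IsHomogeneous d →
            (∀ i : Fin e.1, MultGE F ![t (i, 0), t (i, 1), 1] m) →
              e.2.1 * m ≤ e.2.2 * d := by
  intro e he
  simp only [List.mem_cons, List.not_mem_nil, or_false] at he
  rcases he with rfl | rfl | rfl | rfl | rfl | rfl | rfl | rfl | rfl | rfl | rfl | rfl | rfl | rfl | rfl | rfl | rfl | rfl
  · exact bound_of_kill R11.kill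
  · exact bound_of_kill R12.kill
  · exact bound_of_kill R13.kill
  · exact bound_of_kill R14.kill
  · exact bound_of_kill R15.kill
  · exact bound_of_kill R17.kill
  · exact bound_of_kill R18.kill
  · exact bound_of_kill R19.kill
  · exact bound_of_kill R20.kill
  · exact bound_of_kill R21.kill
  · exact bound_of_kill R22.kill
  · exact bound_of_kill R23.kill
  · exact bound_of_kill R24.kill
  · exact bound_of_kill R26.kill
  · exact bound_of_kill R27.kill
  · exact bound_of_kill R28.kill
  · exact bound_of_kill R29.kill
  · exact bound_of_kill R30.kill
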