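import Vale.Agent.Results.P279.AGeneralMult
import Vale.Agent.Results.P279.TableC

open Vale.Agent.Lib.P279

/-- At `r` very general points of the plane: (1) for every `r` with `11 ≤ r ≤ 60` and arbitrary
multiplicities `m i`, every nonzero form `F` of degree `d` with multiplicity at least `m i` at the
`i`-th point satisfies `(r - 1/50) (∑ m i)² ≤ (r d)²`, written with integers; (2) for each triple
`(r, p, q)` in the list, equal multiplicities `m` force `p m ≤ q d`. -/
theorem Vale.Agent.Results.P279.A0Conj.result :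
    (∀ r : ℕ, 11 ≤ r → r ≤ 60 →
      ∃ G : ℕ → MvPolynomial (Fin r × Fin 2) ℂ, (∀ N, G N ≠ 0) ∧
        ∀ t : Fin r × Fin 2 → ℂ, (∀ N, MvPolynomial.eval t (G N) ≠ 0) →
          ∀ (d : ℕ) (m : Fin r → ℕ) (F : MvPolynomial (Fin 3) ℂ), F ≠ 0 → F.IsHomogeneous d →
            (∀ i : Fin r, MultGE F ![t (i, 0), t (i, 1), 1] (m i)) →
              (50 * r - 1) * (∑ i, m i) ^ 2 ≤ 50 * (r * d) ^ 2) ∧
    (∀ e ∈ ([(11, 66313, 20000), (12, 346283, 100000), (13, 360465, 100000), (14, 373964, 100000), (15, 387194, 100000), (17, 412099, 100000), (18, 424151, 100000), (19, 435744, 100000), (20, 447054, 100000), (21, 458118, 100000), (22, 468872, 100000), (23, 479434, 100000), (24, 489752, 100000), (26, 509777, 100000), (27, 519477, 100000), (28, 529015, 100000), (29, 538398, 100000), (30, 547606, 100000)] : List (ℕ × ℕ × ℕ)),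
      ∃ G : ℕ → MvPolynomial (Fin e.1 × Fin 2) ℂ, (∀ N, G N ≠ 0) ∧
        ∀ t : Fin e.1 × Fin 2 → ℂ, (∀ N, MvPolynomial.eval t (G N) ≠ 0) →
          ∀ (d m : ℕ) (F : MvPolynomial (Fin 3) ℂ), F ≠ 0 → F.IsHomogeneous d →
            (∀ i : Fin e.1, MultGE F ![t (i, 0), t (i, 1), 1] m) →
              e.2.1 * m ≤ e.2.2 * d) :=
  ⟨Vale.Agent.Results.P279.AGeneralMult.result, Vale.Agent.Results.P279.TableC.result⟩
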