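import Vale.Agent.Lib.P279.Defs
import Vale.Agent.Lib.P279.R11

open Vale.Agent.Lib.P279

/-- Eleven very general points: outside the zero sets of the countably many nonzero polynomials
`G N` (in the affine coordinates of the eleven points), every nonzero form `F` of degree `d`
having multiplicity at least `m` at all eleven points satisfies `746 m ≤ 225 d`. -/
theorem Vale.Agent.Results.P279.BoundA.result :
    ∃ G : ℕ → MvPolynomial (Fin 11 × Fin 2) ℂ, (∀ N, G N ≠ 0) ∧
      ∀ t : Fin 11 × Fin 2 → ℂ, (∀ N, MvPolynomial.eval t (G N) ≠ 0) →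
        ∀ (d m : ℕ) (F : MvPolynomial (Fin 3) ℂ), F ≠ 0 → F.IsHomogeneous d →
          (∀ i : Fin 11, MultGE F ![t (i, 0), t (i, 1), 1] m) → 746 * m ≤ 225 * d :=
  bound_of_kill Vale.Agent.Lib.P279.R11.kill
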