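import Vale.Agent.Lib.P279.Defs
import Vale.Agent.Lib.P279.TableAll

open Vale.Agent.Lib.P279

/-- For every `r` with `11 ≤ r ≤ 60`, at `r` very general points (outside the zero sets of the
countably many nonzero polynomials `G N` in the affine coordinates of the points), every nonzero form
`F` of degree `d` with multiplicity at least `m` at all the points satisfies
`(r - 1/50) m² ≤ d²`, written with integers. -/
theorem Vale.Agent.Results.P279.UniformB.result :
    ∀ r : ℕ, 11 ≤ r → r ≤ 60 →
      ∃ G : ℕ → MvPolynomial (Fin r × Fin 2) ℂ, (∀ N, G N ≠ 0) ∧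
        ∀ t : Fin r × Fin 2 → ℂ, (∀ N, MvPolynomial.eval t (G N) ≠ 0) →
          ∀ (d m : ℕ) (F : MvPolynomial (Fin 3) ℂ), F ≠ 0 → F.IsHomogeneous d →
            (∀ i : Fin r, MultGE F ![t (i, 0), t (i, 1), 1] m) →
              (50 * r - 1) * m ^ 2 ≤ 50 * d ^ 2 := by
  intro r h1 h2
  obtain ⟨p, q, hq, hpq, hK⟩ := uniform_table r h1 h2
  exact quad_bound_of_kill hq hpq hK
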